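import Vale.Agent.P088.R2.H551.V.Spec

/-!
# P088, row KLI, first part: `ℓ¹` norms of matrices, Poincaré, Cauchy-Schwarz
-/

open MeasureTheory Set
open scoped ContDiff Matrix

noncomputable section

namespace Vale.Agent.P088.PJ.H87

open Vale.Agent.P088.LR Vale.Agent.P088.LR.U Vale.Agent.P088.LR.H158 Vale.Agent.P088.PJ
open Vale.Agent.P088

variable {n N : ℕ}

/-! ### the `ℓ¹` norm -/

/-- The sum of the absolute values of the entries. -/
def m1 (A : Matrix (Fin N) (Fin N) ℂ) : ℝ := ∑ a, ∑ b, ‖A a b‖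

theorem m1_nonneg (A : Matrix (Fin N) (Fin N) ℂ) : 0 ≤ m1 A :=
  Finset.sum_nonneg fun _ _ => Finset.sum_nonneg fun _ _ => norm_nonneg _

theorem m1_zero : m1 (0 : Matrix (Fin N) (Fin N) ℂ) = 0 := by simp [m1]

theorem norm_trace_le (A : Matrix (Fin N) (Fin N) ℂ) : ‖A.trace‖ ≤ m1 A := by
  unfold Matrix.trace m1
  refine (norm_sum_le _ _).trans (Finset.sum_le_sum fun a _ => ?_)
  exact Finset.single_le_sum (f := fun b => ‖A a b‖) (fun _ _ => norm_nonneg _)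
    (Finset.mem_univ a)

theorem m1_add (A B : Matrix (Fin N) (Fin N) ℂ) : m1 (A + B) ≤ m1 A + m1 B := by
  unfold m1
  rw [← Finset.sum_add_distrib]
  refine Finset.sum_le_sum fun a _ => ?_
  rw [← Finset.sum_add_distrib]
  exact Finset.sum_le_sum fun b _ => norm_add_le _ _

theorem m1_mul (A B : Matrix (Fin N) (Fin N) ℂ) : m1 (A * B) ≤ m1 A * m1 B := by
  have h1 : m1 (A * B) ≤ ∑ a, ∑ b, ∑ c, ‖A a c‖ * ‖B c b‖ := by
    unfold m1
    refine Finset.sum_le_sum fun a _ => Finset.sum_le_sum fun b _ => ?_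
    rw [Matrix.mul_apply]
    refine (norm_sum_le _ _).trans (le_of_eq ?_)
    exact Finset.sum_congr rfl fun c _ => norm_mul _ _
  refine h1.trans ?_
  have h2 : ∀ a, ∑ b, ∑ c, ‖A a c‖ * ‖B c b‖ = ∑ c, ‖A a c‖ * ∑ b, ‖B c b‖ := by
    intro a
    rw [Finset.sum_comm]
    exact Finset.sum_congr rfl fun c _ => by rw [Finset.mul_sum]
  simp only [h2]
  unfold m1
  rw [Finset.sum_mul]
  refine Finset.sum_le_sum fun a _ => ?_
  rw [Finset.sum_mul]
  refine Finset.sum_le_sum fun c _ => ?_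
  refine mul_le_mul_of_nonneg_left ?_ (norm_nonneg _)
  exact Finset.single_le_sum (f := fun c => ∑ b, ‖B c b‖)
    (fun _ _ => Finset.sum_nonneg fun _ _ => norm_nonneg _) (Finset.mem_univ c)

theorem m1_le {A : Matrix (Fin N) (Fin N) ℂ} {r : ℝ} (h : ∀ a b, ‖A a b‖ ≤ r) :
    m1 A ≤ N * N * r := by
  unfold m1
  have h1 : ∑ a : Fin N, ∑ b : Fin N, ‖A a b‖ ≤ ∑ a : Fin N, ∑ b : Fin N, r :=
    Finset.sum_le_sum fun a _ => Finset.sum_le_sum fun b _ => h a b
  refine h1.trans (le_of_eq ?_)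
  simp only [Finset.sum_const, Finset.card_univ, Fintype.card_fin, nsmul_eq_mul]
  ring

theorem m1_sq (A : Matrix (Fin N) (Fin N) ℂ) : m1 A ^ 2 ≤ N * N * nq A := by
  unfold m1 nq
  have h1 : ∀ a, (∑ b, ‖A a b‖) ^ 2 ≤ N * ∑ b, ‖A a b‖ ^ 2 := by
    intro a
    have := sq_sum_le_card_mul_sum_sq (s := Finset.univ) (f := fun b => ‖A a b‖)
    simpa using this
  have h2 : (∑ a, ∑ b, ‖A a b‖) ^ 2 ≤ N * ∑ a, (∑ b, ‖A a b‖) ^ 2 := by
    have := sq_sum_le_card_mul_sum_sq (s := Finset.univ) (f := fun a => ∑ b, ‖A a b‖)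
    simpa using this
  refine h2.trans ?_
  have h3 : ∑ a, (∑ b, ‖A a b‖) ^ 2 ≤ N * ∑ a, ∑ b, ‖A a b‖ ^ 2 := by
    rw [Finset.mul_sum]
    exact Finset.sum_le_sum fun a _ => h1 a
  have h4 : (0 : ℝ) ≤ N := Nat.cast_nonneg N
  nlinarith [mul_le_mul_of_nonneg_left h3 h4]

/-- Trace of a product of four matrices. -/
theorem tr4 {A B C D : Matrix (Fin N) (Fin N) ℂ} :
    ‖(A * B * C * D).trace‖ ≤ m1 A * m1 B * m1 C * m1 D := by
  refine (norm_trace_le _).trans ((m1_mul _ _).trans ?_)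
  refine mul_le_mul_of_nonneg_right ?_ (m1_nonneg _)
  refine (m1_mul _ _).trans ?_
  exact mul_le_mul_of_nonneg_right (m1_mul _ _) (m1_nonneg _)

/-! ### integration -/

theorem bdd_bl0 : Bornology.IsBounded (bl0 n) := by
  refine (Metric.isBounded_closedBall (x := (0 : V n)) (r := 1)).subset ?_
  intro x hx
  have hx' : ∑ j, x j ^ 2 ≤ 1 / 4 := hx
  rw [mem_closedBall_zero_iff, pi_norm_le_iff_of_nonneg zero_le_one]
  intro i
  have h1 : x i ^ 2 ≤ ∑ j, x j ^ 2 :=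
    Finset.single_le_sum (f := fun j => x j ^ 2) (fun _ _ => sq_nonneg _) (Finset.mem_univ i)
  rw [Real.norm_eq_abs]
  exact abs_le_of_sq_le_sq' (by nlinarith) zero_le_one |> abs_le.2

theorem abs_le_half {x : V n} (hx : x ∈ bl0 n) (i : Fin n) : |x i| ≤ 1 / 2 := by
  have hx' : ∑ j, x j ^ 2 ≤ 1 / 4 := hx
  have h1 : x i ^ 2 ≤ ∑ j, x j ^ 2 :=
    Finset.single_le_sum (f := fun j => x j ^ 2) (fun _ _ => sq_nonneg _) (Finset.mem_univ i)
  exact abs_le.2 (abs_le_of_sq_le_sq' (by nlinarith) (by norm_num))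

theorem int_off {F : Type*} [NormedAddCommGroup F] {f : V n → F} (hf : Continuous f)
    (h0 : ∀ x ∉ bl0 n, f x = 0) : Integrable f :=
  hf.integrable_of_hasCompactSupport (HasCompactSupport.intro bdd_bl0.isCompact_closure
    fun x hx => h0 x fun h => hx (subset_closure h))

theorem memL2 {f : V n → ℝ} (hf : Continuous f) (h0 : ∀ x ∉ bl0 n, f x = 0) :
    MemLp f (ENNReal.ofReal 2) volume := by
  have h1 : HasCompactSupport f := HasCompactSupport.intro bdd_bl0.isCompact_closure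
    fun x hx => h0 x fun h => hx (subset_closure h)
  exact hf.memLp_of_hasCompactSupport h1

/-- Cauchy-Schwarz. -/
theorem cs_int {f g : V n → ℝ} (hf : Continuous f) (hg : Continuous g) (f0 : ∀ x, 0 ≤ f x)
    (g0 : ∀ x, 0 ≤ g x) (fz : ∀ x ∉ bl0 n, f x = 0) (gz : ∀ x ∉ bl0 n, g x = 0) :
    ∫ x, f x * g x ≤ √(∫ x, f x ^ 2) * √(∫ x, g x ^ 2) := by
  have h := integral_mul_le_Lp_mul_Lq_of_nonneg (μ := (volume : Measure (V n)))
    Real.HolderConjugate.two_two (f := f) (g := g)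
    (Filter.Eventually.of_forall f0) (Filter.Eventually.of_forall g0) (memL2 hf fz) (memL2 hg gz)
  simpa only [Real.rpow_two, ← Real.sqrt_eq_rpow] using h

end Vale.Agent.P088.PJ.H87
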