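import Vale.Agent.P088.R2.H87.V.A

/-!
# P088, row KLI, second part: Poincaré, the divergence
-/

open MeasureTheory Set
open scoped ContDiff Matrix

noncomputable section

namespace Vale.Agent.P088.PJ.H87

open Vale.Agent.P088.LR Vale.Agent.P088.LR.U Vale.Agent.P088.LR.H158 Vale.Agent.P088.PJ
open Vale.Agent.P088

variable {n N : ℕ}

theorem isClosed_bl0 : IsClosed (bl0 n) := by
  have h : Continuous fun x : V n => ∑ j, x j ^ 2 := by fun_prop
  exact isClosed_le h continuous_const

theorem pd_off {F : Type*} [NormedAddCommGroup F] [NormedSpace ℝ F] {f : V n → F}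
    (h0 : ∀ x ∉ bl0 n, f x = 0) (i : Fin n) : ∀ x ∉ bl0 n, pd i f x = 0 := by
  intro x hx
  have h1 := pd_congr (f := f) (g := fun _ => (0 : F)) (isClosed_bl0 (n := n)).isOpen_compl
    (fun y hy => h0 y hy) (x := x) hx i
  rw [h1, pd_const]

theorem poincare {f : V n → ℂ} (hf : ContDiff ℝ ∞ f) (h0 : ∀ x ∉ bl0 n, f x = 0) (i : Fin n) :
    ∫ x, ‖f x‖ ^ 2 ≤ ∫ x, ‖pd i f x‖ ^ 2 := by
  have hG : ContDiff ℝ ∞ fun x : V n => ((x i : ℝ) : ℂ) * (f x * star (f x)) :=
    (contDiff_coord i).mul (hf.mul (contDiff_star hf))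
  have hGz : ∀ x ∉ bl0 n, ((x i : ℝ) : ℂ) * (f x * star (f x)) = 0 := by
    intro x hx
    rw [h0 x hx]
    simp
  obtain ⟨hi, hz⟩ := integral_pd_zero bdd_bl0 hG hGz i
  have hpd : ∀ x, pd i (fun x : V n => ((x i : ℝ) : ℂ) * (f x * star (f x))) x =
      f x * star (f x) + ((x i : ℝ) : ℂ) * (pd i f x * star (f x) + f x * star (pd i f x)) := by
    intro x
    rw [pd_mul (dfa (contDiff_coord i) x) (dfa (hf.mul (contDiff_star hf)) x),
      pd_mul (dfa hf x) (dfa (contDiff_star hf) x), pd_star (dfa hf x), pd_coord]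
    simp
  have hre : ∀ x, (pd i (fun x : V n => ((x i : ℝ) : ℂ) * (f x * star (f x))) x).re =
      ‖f x‖ ^ 2 + 2 * x i * (pd i f x * star (f x)).re := by
    intro x
    rw [hpd]
    have h1 : f x * star (f x) = ((‖f x‖ ^ 2 : ℝ) : ℂ) := by
      have := Complex.mul_conj (f x)
      rw [Complex.normSq_eq_norm_sq] at this
      simpa using this
    have h2 : f x * star (pd i f x) = star (pd i f x * star (f x)) := by
      rw [star_mul, star_star]
    rw [h2, h1, Complex.add_re, Complex.ofReal_re, Complex.re_ofReal_mul, Complex.add_re]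
    have h3 : (star (pd i f x * star (f x))).re = (pd i f x * star (f x)).re := rfl
    rw [h3]
    ring
  have hint : ∫ x, (pd i (fun x : V n => ((x i : ℝ) : ℂ) * (f x * star (f x))) x).re = 0 := by
    have h1 := integral_re (𝕜 := ℂ) hi
    have h2 : ∫ x, (pd i (fun x : V n => ((x i : ℝ) : ℂ) * (f x * star (f x))) x).re =
      (∫ x, pd i (fun x : V n => ((x i : ℝ) : ℂ) * (f x * star (f x))) x).re := h1
    rw [h2, hz]
    simp
  have hpw : ∀ x, (1 / 2) * (‖f x‖ ^ 2 - ‖pd i f x‖ ^ 2) ≤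
      (pd i (fun x : V n => ((x i : ℝ) : ℂ) * (f x * star (f x))) x).re := by
    intro x
    rw [hre]
    have h1 : |(pd i f x * star (f x)).re| ≤ ‖pd i f x‖ * ‖f x‖ := by
      refine (Complex.abs_re_le_norm _).trans (le_of_eq ?_)
      rw [norm_mul, norm_star]
    by_cases hx : x ∈ bl0 n
    · have h2 := abs_le_half hx i
      have h3 : |2 * x i * (pd i f x * star (f x)).re| ≤ ‖pd i f x‖ * ‖f x‖ := by
        rw [abs_mul, abs_mul, abs_two]
        have h4 : 2 * |x i| ≤ 1 := by linarith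
        calc 2 * |x i| * |(pd i f x * star (f x)).re| ≤
            1 * |(pd i f x * star (f x)).re| :=
              mul_le_mul_of_nonneg_right h4 (abs_nonneg _)
          _ ≤ ‖pd i f x‖ * ‖f x‖ := by rw [one_mul]; exact h1
      have h5 := neg_le_of_abs_le h3
      nlinarith [sq_nonneg (‖pd i f x‖ - ‖f x‖)]
    · rw [h0 x hx]
      simp only [norm_zero, star_zero, mul_zero, Complex.zero_re]
      nlinarith [sq_nonneg ‖pd i f x‖]
  have hc : Continuous f := hf.continuous
  have hc' : Continuous (pd i f) := (contDiff_pd hf i).continuous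
  have i1 : Integrable fun x => ‖f x‖ ^ 2 :=
    int_off (by fun_prop) fun x hx => by rw [h0 x hx]; simp
  have i2 : Integrable fun x => ‖pd i f x‖ ^ 2 :=
    int_off (by fun_prop) fun x hx => by rw [pd_off h0 i x hx]; simp
  have h5 := integral_mono (((i1.sub i2).const_mul (1 / 2))) hi.re hpw
  have h6 : ∫ x, RCLike.re (pd i (fun x : V n => ((x i : ℝ) : ℂ) * (f x * star (f x))) x) = 0 :=
    hint
  simp only [Pi.sub_apply] at h5
  rw [h6, integral_const_mul, integral_sub i1 i2] at h5
  linarith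

end Vale.Agent.P088.PJ.H87
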