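import Vale.Agent.P088.R2.H87.V.B

/-!
# P088, row KLI, third part: the pointwise identity and the pointwise bound
-/

open MeasureTheory Set
open scoped ContDiff Matrix

noncomputable section

namespace Vale.Agent.P088.PJ.H87

open Vale.Agent.P088.LR Vale.Agent.P088.LR.U Vale.Agent.P088.LR.H158 Vale.Agent.P088.PJ
open Vale.Agent.P088

variable {n N : ℕ}

theorem contDiff_tr {P : MC n N} (hP : SmC P) : ContDiff ℝ ∞ fun x => (P x).trace := by
  simp only [Matrix.trace, Matrix.diag_apply]
  exact ContDiff.sum fun a _ => hP a a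

theorem pd_tr {P : MC n N} (hP : SmC P) (i : Fin n) (x : V n) :
    pd i (fun y => (P y).trace) x = (pdm i P x).trace := by
  simp only [Matrix.trace, Matrix.diag_apply]
  rw [pd_sum fun j _ => dfa (hP j j) x]
  rfl

theorem pd_tr4 {A B C D : MC n N} (hA : SmC A) (hB : SmC B) (hC : SmC C) (hD : SmC D)
    (i : Fin n) (x : V n) : pd i (fun y => (A y * B y * C y * D y).trace) x =
      (pdm i A x * B x * C x * D x).trace + (A x * pdm i B x * C x * D x).trace +
        (A x * B x * pdm i C x * D x).trace + (A x * B x * C x * pdm i D x).trace := by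
  have h := pd_tr (SmC_mul (SmC_mul (SmC_mul hA hB) hC) hD) i x
  rw [h, pdm_mul (SmC_mul (SmC_mul hA hB) hC) hD, pdm_mul (SmC_mul hA hB) hC, pdm_mul hA hB]
  simp only [Matrix.add_mul, Matrix.trace_add]

theorem tr_rhb (A B : Matrix (Fin N) (Fin N) ℂ) (s : MF n) (P : MC n N) (G : Fin n → MC n N)
    (k2 : Fin n → Fin n → MC n N) (b : Fin n) (x : V n) :
    (A * (B * rhb s P G k2 b x)).trace =
      (∑ i, ∑ j, (2 * (A * B * pdm i (k2 j b) x * TP s P i j x).trace +
        (A * B * k2 j b x * pdm i (TP s P i j) x).trace)) -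
      ∑ j, (A * B * k2 j b x * kp s G j x).trace := by
  have h1 : A * (B * rhb s P G k2 b x) =
      (2 : ℂ) • (∑ i, ∑ j, A * B * pdm i (k2 j b) x * TP s P i j x) +
        ((∑ j, ∑ i, A * B * k2 j b x * pdm i (TP s P i j) x) -
          ∑ j, A * B * k2 j b x * kp s G j x) := by
    unfold rhb
    rw [← Matrix.mul_assoc, Matrix.mul_add, Matrix.mul_smul]
    simp only [Finset.mul_sum, Matrix.mul_sub, ← Matrix.mul_assoc, Finset.sum_sub_distrib]
  rw [h1, Finset.sum_comm (f := fun j i => A * B * k2 j b x * pdm i (TP s P i j) x)]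
  simp only [Matrix.trace_add, Matrix.trace_sub, Matrix.trace_smul, Matrix.trace_sum, smul_eq_mul,
    Finset.sum_add_distrib, Finset.mul_sum]
  ring

section id

variable {s : MF n} {P : MC n N} {G : Fin n → MC n N} {D : Fin n → MC n N}
  {Γ k2 : Fin n → Fin n → MC n N}

/-- The first error. -/
def E1 (s : MF n) (P : MC n N) (D : Fin n → MC n N) (Γ k2 : Fin n → Fin n → MC n N) (x : V n) :
    ℂ :=
  (∑ a, ∑ b, ∑ i, ∑ j, -2 * (pdm i (D a) x * Γ a b x * k2 j b x * TP s P i j x).trace) +
    ∑ i, ∑ j, ((pdm i (D j) x + pdm j (D i) x) * k2 i j x).trace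

/-- The second error. -/
def E2 (s : MF n) (P : MC n N) (G : Fin n → MC n N) (D : Fin n → MC n N)
    (Γ k2 : Fin n → Fin n → MC n N) (x : V n) : ℂ :=
  (∑ a, ∑ b, ∑ i, ∑ j, (-2 * (D a x * pdm i (Γ a b) x * k2 j b x * TP s P i j x).trace -
    (D a x * Γ a b x * k2 j b x * pdm i (TP s P i j) x).trace)) -
    ∑ a, ∑ b, ∑ j, (D a x * Γ a b x * k2 j b x * kp s G j x).trace

theorem smTP (hs : SmM s) (hP : SmC P) (i j : Fin n) : SmC (TP s P i j) := by
  intro a b
  simp only [TP, Matrix.smul_apply, smul_eq_mul]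
  exact (Complex.ofRealCLM.contDiff.comp (hs i j)).mul (hP a b)

theorem id_pw (hs : SmM s) (hP : SmC P) (hD : ∀ a, SmC (D a)) (hΓ : ∀ a b, SmC (Γ a b))
    (hk : ∀ i j, SmC (k2 i j)) (x : V n) :
    (∑ a, ∑ b, (D a x * (Γ a b x * rhb s P G k2 b x)).trace) +
      ∑ i, ∑ j, ((pdm i (D j) x + pdm j (D i) x) * k2 i j x).trace =
    (∑ a, ∑ b, ∑ i, ∑ j,
      2 * pd i (fun y => (D a y * Γ a b y * k2 j b y * TP s P i j y).trace) x) +
      (E1 s P D Γ k2 x + E2 s P G D Γ k2 x) := by
  have h1 : ∀ a b, (D a x * (Γ a b x * rhb s P G k2 b x)).trace =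
      (∑ i, ∑ j, 2 * pd i (fun y => (D a y * Γ a b y * k2 j b y * TP s P i j y).trace) x) +
      (∑ i, ∑ j, -2 * (pdm i (D a) x * Γ a b x * k2 j b x * TP s P i j x).trace) +
      (∑ i, ∑ j, (-2 * (D a x * pdm i (Γ a b) x * k2 j b x * TP s P i j x).trace -
        (D a x * Γ a b x * k2 j b x * pdm i (TP s P i j) x).trace)) -
      ∑ j, (D a x * Γ a b x * k2 j b x * kp s G j x).trace := by
    intro a b
    rw [tr_rhb]
    congr 1
    rw [← Finset.sum_add_distrib, ← Finset.sum_add_distrib]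
    refine Finset.sum_congr rfl fun i _ => ?_
    rw [← Finset.sum_add_distrib, ← Finset.sum_add_distrib]
    refine Finset.sum_congr rfl fun j _ => ?_
    rw [pd_tr4 (hD a) (hΓ a b) (hk j b) (smTP hs hP i j)]
    ring
  simp only [h1, E1, E2, Finset.sum_add_distrib, Finset.sum_sub_distrib]
  ring

/-- `δ_ij`. -/
def dl (i j : Fin n) : Matrix (Fin N) (Fin N) ℂ := if i = j then 1 else 0

theorem E1_eq (hk : ∀ i j, k2 i j = k2 j i) (x : V n) : E1 s P D Γ k2 x =
    ∑ a, ∑ b, ∑ i, ∑ j, -2 * ((pdm i (D a) x * (Γ a b x - dl a b) * k2 j b x * dl i j).trace +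
      (pdm i (D a) x * Γ a b x * k2 j b x * (TP s P i j x - dl i j)).trace) := by
  have h1 : ∀ a b i j, (pdm i (D a) x * Γ a b x * k2 j b x * TP s P i j x).trace =
      (pdm i (D a) x * dl a b * k2 j b x * dl i j).trace +
      ((pdm i (D a) x * (Γ a b x - dl a b) * k2 j b x * dl i j).trace +
      (pdm i (D a) x * Γ a b x * k2 j b x * (TP s P i j x - dl i j)).trace) := by
    intro a b i j
    rw [← Matrix.trace_add, ← Matrix.trace_add]
    congr 1
    simp only [Matrix.mul_sub, Matrix.sub_mul]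
    abel
  have h2 : ∑ a, ∑ b, ∑ i, ∑ j, (pdm i (D a) x * dl a b * k2 j b x * dl i j).trace =
      ∑ a, ∑ i, (pdm i (D a) x * k2 i a x).trace := by
    refine Finset.sum_congr rfl fun a _ => ?_
    have h3 : ∀ b, ∑ i, ∑ j, (pdm i (D a) x * dl a b * k2 j b x * dl i j).trace =
        if a = b then ∑ i, (pdm i (D a) x * k2 i a x).trace else 0 := by
      intro b
      by_cases hab : a = b
      · subst hab
        rw [if_pos rfl]
        refine Finset.sum_congr rfl fun i _ => ?_
        have h4 : ∀ j, (pdm i (D a) x * dl a a * k2 j a x * dl i j).trace =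
            if i = j then (pdm i (D a) x * k2 i a x).trace else 0 := by
          intro j
          by_cases hij : i = j
          · subst hij
            simp [dl]
          · simp [dl, hij]
        simp only [h4, Finset.sum_ite_eq, Finset.mem_univ, if_true]
      · simp [dl, hab]
    simp only [h3, Finset.sum_ite_eq, Finset.mem_univ, if_true]
  have h5 : ∑ i, ∑ j, ((pdm i (D j) x + pdm j (D i) x) * k2 i j x).trace =
      2 * ∑ a, ∑ i, (pdm i (D a) x * k2 i a x).trace := by
    have h6 : ∑ i, ∑ j, (pdm j (D i) x * k2 i j x).trace =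
        ∑ a, ∑ i, (pdm i (D a) x * k2 i a x).trace := by
      refine Finset.sum_congr rfl fun a _ => Finset.sum_congr rfl fun i _ => ?_
      rw [hk a i]
    have h7 : ∑ i, ∑ j, (pdm i (D j) x * k2 i j x).trace =
        ∑ a, ∑ i, (pdm i (D a) x * k2 i a x).trace := Finset.sum_comm
    simp only [Matrix.add_mul, Matrix.trace_add, Finset.sum_add_distrib]
    rw [h6, h7]
    ring
  unfold E1
  rw [h5]
  simp only [h1, mul_add, Finset.sum_add_distrib]
  simp only [← Finset.mul_sum]
  rw [h2]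
  ring

end id

end Vale.Agent.P088.PJ.H87
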