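import Vale.Agent.P088.R2.H87.V.C

/-!
# P088, row KLI, fourth part: the bounds of the errors
-/

open MeasureTheory Set
open scoped ContDiff Matrix

noncomputable section

namespace Vale.Agent.P088.PJ.H87

open Vale.Agent.P088.LR Vale.Agent.P088.LR.U Vale.Agent.P088.LR.H158 Vale.Agent.P088.PJ
open Vale.Agent.P088

variable {n N : ℕ}

theorem sum1_le {f : Fin n → ℂ} {B : ℝ} (h : ∀ a, ‖f a‖ ≤ B) : ‖∑ a, f a‖ ≤ n * B := by
  refine (norm_sum_le _ _).trans ?_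
  refine (Finset.sum_le_sum fun a _ => h a).trans (le_of_eq ?_)
  simp

theorem tr4' {A B C D : Matrix (Fin N) (Fin N) ℂ} {a b c d : ℝ} (hA : m1 A ≤ a) (hB : m1 B ≤ b)
    (hC : m1 C ≤ c) (hD : m1 D ≤ d) : ‖(A * B * C * D).trace‖ ≤ a * b * c * d := by
  refine tr4.trans ?_
  have h1 := m1_nonneg A
  have h2 := m1_nonneg B
  have h3 := m1_nonneg C
  have h4 := m1_nonneg D
  have h5 : 0 ≤ a := h1.trans hA
  have h6 : 0 ≤ b := h2.trans hB
  have h7 : 0 ≤ c := h3.trans hC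
  gcongr

/-- `|∇D|`. -/
def nDn (D : Fin n → MC n N) (x : V n) : ℝ := ∑ a, ∑ i, m1 (pdm i (D a) x)

/-- `|D|`. -/
def nD0 (D : Fin n → MC n N) (x : V n) : ℝ := ∑ a, m1 (D a x)

/-- `|k|`. -/
def nK (k2 : Fin n → Fin n → MC n N) (x : V n) : ℝ := ∑ i, ∑ j, m1 (k2 i j x)

theorem nDn_nonneg (D : Fin n → MC n N) (x : V n) : 0 ≤ nDn D x :=
  Finset.sum_nonneg fun _ _ => Finset.sum_nonneg fun _ _ => m1_nonneg _

theorem nD0_nonneg (D : Fin n → MC n N) (x : V n) : 0 ≤ nD0 D x :=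
  Finset.sum_nonneg fun _ _ => m1_nonneg _

theorem nK_nonneg (k2 : Fin n → Fin n → MC n N) (x : V n) : 0 ≤ nK k2 x :=
  Finset.sum_nonneg fun _ _ => Finset.sum_nonneg fun _ _ => m1_nonneg _

theorem le_nDn (D : Fin n → MC n N) (x : V n) (i a : Fin n) : m1 (pdm i (D a) x) ≤ nDn D x := by
  refine (Finset.single_le_sum (f := fun i => m1 (pdm i (D a) x)) (fun _ _ => m1_nonneg _)
    (Finset.mem_univ i)).trans ?_
  exact Finset.single_le_sum (f := fun a => ∑ i, m1 (pdm i (D a) x))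
    (fun _ _ => Finset.sum_nonneg fun _ _ => m1_nonneg _) (Finset.mem_univ a)

theorem le_nD0 (D : Fin n → MC n N) (x : V n) (a : Fin n) : m1 (D a x) ≤ nD0 D x :=
  Finset.single_le_sum (f := fun a => m1 (D a x)) (fun _ _ => m1_nonneg _) (Finset.mem_univ a)

theorem le_nK (k2 : Fin n → Fin n → MC n N) (x : V n) (i j : Fin n) :
    m1 (k2 i j x) ≤ nK k2 x := by
  refine (Finset.single_le_sum (f := fun j => m1 (k2 i j x)) (fun _ _ => m1_nonneg _)
    (Finset.mem_univ j)).trans ?_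
  exact Finset.single_le_sum (f := fun i => ∑ j, m1 (k2 i j x))
    (fun _ _ => Finset.sum_nonneg fun _ _ => m1_nonneg _) (Finset.mem_univ i)

/-- The pointwise bounds. -/
structure Bd (c δ : ℝ) (s : MF n) (P : MC n N) (G : Fin n → MC n N) (Γ : Fin n → Fin n → MC n N)
    (x : V n) : Prop where
  c0 : 0 ≤ c
  d0 : 0 ≤ δ
  hd : ∀ i j : Fin n, m1 (dl i j : Matrix (Fin N) (Fin N) ℂ) ≤ c
  hΓ : ∀ a b, m1 (Γ a b x) ≤ c
  hg : ∀ a b, m1 (Γ a b x - dl a b) ≤ c * δ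
  hΓ' : ∀ l a b, m1 (pdm l (Γ a b) x) ≤ c * δ
  hT : ∀ i j, m1 (TP s P i j x) ≤ c
  ht : ∀ i j, m1 (TP s P i j x - dl i j) ≤ c * δ
  hT' : ∀ l i j, m1 (pdm l (TP s P i j) x) ≤ c * δ
  hκ : ∀ j, m1 (kp s G j x) ≤ c * δ

section bound

variable {c δ : ℝ} {s : MF n} {P : MC n N} {G : Fin n → MC n N} {D : Fin n → MC n N}
  {Γ k2 : Fin n → Fin n → MC n N} {x : V n}

theorem E1_le (h : Bd c δ s P G Γ x) (hk : ∀ i j, k2 i j = k2 j i) :
    ‖E1 s P D Γ k2 x‖ ≤ 4 * n ^ 4 * c ^ 2 * δ * (nDn D x * nK k2 x) := by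
  rw [E1_eq hk]
  have h1 : ∀ a b i j, ‖-2 * ((pdm i (D a) x * (Γ a b x - dl a b) * k2 j b x * dl i j).trace +
      (pdm i (D a) x * Γ a b x * k2 j b x * (TP s P i j x - dl i j)).trace)‖ ≤
      2 * (nDn D x * (c * δ) * nK k2 x * c + nDn D x * c * nK k2 x * (c * δ)) := by
    intro a b i j
    rw [norm_mul]
    have h2 : ‖(-2 : ℂ)‖ = 2 := by simp
    rw [h2]
    refine mul_le_mul_of_nonneg_left ((norm_add_le _ _).trans (add_le_add ?_ ?_)) (by norm_num)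
    · exact tr4' (le_nDn D x i a) (h.hg a b) (le_nK k2 x j b) (h.hd i j)
    · exact tr4' (le_nDn D x i a) (h.hΓ a b) (le_nK k2 x j b) (h.ht i j)
  refine (sum1_le fun a => sum1_le fun b => sum1_le fun i => sum1_le fun j =>
    h1 a b i j).trans (le_of_eq ?_)
  ring

theorem E2_le (h : Bd c δ s P G Γ x) :
    ‖E2 s P G D Γ k2 x‖ ≤ (3 * n ^ 4 + n ^ 3) * c ^ 2 * δ * (nD0 D x * nK k2 x) := by
  unfold E2
  have h1 : ∀ a b i j, ‖-2 * (D a x * pdm i (Γ a b) x * k2 j b x * TP s P i j x).trace -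
      (D a x * Γ a b x * k2 j b x * pdm i (TP s P i j) x).trace‖ ≤
      2 * (nD0 D x * (c * δ) * nK k2 x * c) + nD0 D x * c * nK k2 x * (c * δ) := by
    intro a b i j
    refine (norm_sub_le _ _).trans (add_le_add ?_ ?_)
    · rw [norm_mul]
      have h2 : ‖(-2 : ℂ)‖ = 2 := by simp
      rw [h2]
      refine mul_le_mul_of_nonneg_left ?_ (by norm_num)
      exact tr4' (le_nD0 D x a) (h.hΓ' i a b) (le_nK k2 x j b) (h.hT i j)
    · exact tr4' (le_nD0 D x a) (h.hΓ a b) (le_nK k2 x j b) (h.hT' i i j)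
  have h2 : ∀ a b j, ‖(D a x * Γ a b x * k2 j b x * kp s G j x).trace‖ ≤
      nD0 D x * c * nK k2 x * (c * δ) := fun a b j =>
    tr4' (le_nD0 D x a) (h.hΓ a b) (le_nK k2 x j b) (h.hκ j)
  refine (norm_sub_le _ _).trans ?_
  refine (add_le_add (sum1_le fun a => sum1_le fun b => sum1_le fun i => sum1_le fun j =>
    h1 a b i j) (sum1_le fun a => sum1_le fun b => sum1_le fun j =>
    h2 a b j)).trans (le_of_eq ?_)
  ring

theorem E_le (h : Bd c δ s P G Γ x) (hk : ∀ i j, k2 i j = k2 j i) :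
    ‖E1 s P D Γ k2 x + E2 s P G D Γ k2 x‖ ≤
      (4 * n ^ 4 + n ^ 3) * c ^ 2 * δ * ((nDn D x + nD0 D x) * nK k2 x) := by
  refine (norm_add_le _ _).trans ?_
  have h1 := E1_le (D := D) h hk
  have h2 := E2_le (D := D) (k2 := k2) h
  have h3 : 0 ≤ nDn D x * nK k2 x := mul_nonneg (nDn_nonneg _ _) (nK_nonneg _ _)
  have h4 : 0 ≤ nD0 D x * nK k2 x := mul_nonneg (nD0_nonneg _ _) (nK_nonneg _ _)
  have h5 : (0 : ℝ) ≤ (n : ℝ) ^ 3 := by positivity
  have h6 : (0 : ℝ) ≤ (n : ℝ) ^ 4 := by positivity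
  have h7 : 0 ≤ c ^ 2 * δ := mul_nonneg (sq_nonneg _) h.d0
  have h8 : 0 ≤ (n : ℝ) ^ 3 * (c ^ 2 * δ * (nDn D x * nK k2 x)) := by positivity
  have h9 : 0 ≤ (n : ℝ) ^ 4 * (c ^ 2 * δ * (nD0 D x * nK k2 x)) := by positivity
  nlinarith

end bound

/-! ### norms of the coefficients from closeness -/

theorem cl0 {F : Type*} [NormedAddCommGroup F] [NormedSpace ℝ F] {k : ℕ} {ε : ℝ} {f : V n → F}
    (h : Cl k ε f) (x : V n) : ‖f x‖ ≤ ε := by
  have := h 0 (Nat.zero_le _) x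
  rwa [norm_iteratedFDeriv_zero] at this

theorem cl1 {F : Type*} [NormedAddCommGroup F] [NormedSpace ℝ F] {k : ℕ} (hk : 1 ≤ k) {ε : ℝ}
    {f : V n → F} (h : Cl k ε f) (i : Fin n) (x : V n) : ‖pd i f x‖ ≤ ε := by
  have h1 := h 1 hk x
  rw [norm_iteratedFDeriv_one] at h1
  unfold pd
  refine ((fderiv ℝ f x).le_opNorm _).trans ?_
  have h2 : ‖(Pi.single i (1 : ℝ) : V n)‖ = 1 := by
    rw [Pi.norm_single, norm_one]
  rw [h2, mul_one]
  exact h1

theorem pd_sub_const {F : Type*} [NormedAddCommGroup F] [NormedSpace ℝ F] (f : V n → F) (c : F)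
    (i : Fin n) (x : V n) : pd i (fun y => f y - c) x = pd i f x := by
  unfold pd
  rw [fderiv_sub_const]

theorem one_entry (a b : Fin N) : ‖(1 : Matrix (Fin N) (Fin N) ℂ) a b‖ ≤ 1 := by
  by_cases h : a = b
  · subst h; simp
  · simp [h]

theorem dl_entry (i j : Fin n) (a b : Fin N) :
    ‖(dl i j : Matrix (Fin N) (Fin N) ℂ) a b‖ ≤ 1 := by
  unfold dl
  by_cases h : i = j
  · simp only [h, if_true]
    exact one_entry a b
  · simp [h]

end Vale.Agent.P088.PJ.H87
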