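import Vale.Agent.P088.R2.H87.V.D

/-!
# P088, row KLI
-/

open MeasureTheory Set
open scoped ContDiff Matrix

noncomputable section

namespace Vale.Agent.P088.PJ.H87

open Vale.Agent.P088.LR Vale.Agent.P088.LR.U Vale.Agent.P088.LR.H158 Vale.Agent.P088.PJ
open Vale.Agent.P088

variable {n N : ℕ}

theorem bd_of {k : ℕ} (hk : 1 ≤ k) {δ : ℝ} (h0 : 0 ≤ δ) (h1 : δ ≤ 1) {Ω : Set (V n)} {s : MF n}
    {P : MC n N} {G : Fin n → MC n N} (h : Dt k δ Ω s P G) {Γ : Fin n → Fin n → MC n N}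
    (hΓ : ∀ a b, ClC k δ (fun x => Γ a b x - if a = b then 1 else 0)) (x : V n) :
    Bd (N * N * (4 + 2 * n)) δ s P G Γ x := by
  have hN : (0 : ℝ) ≤ N * N := by positivity
  have hn : (0 : ℝ) ≤ n := Nat.cast_nonneg n
  have hs1 : ∀ i j, |s x i j - (1 : Matrix (Fin n) (Fin n) ℝ) i j| ≤ δ := fun i j => by
    have := cl0 (h.cs i j) x
    rwa [Real.norm_eq_abs] at this
  have hone : ∀ i j : Fin n, |(1 : Matrix (Fin n) (Fin n) ℝ) i j| ≤ 1 := by
    intro i j
    by_cases hij : i = j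
    · subst hij; simp
    · simp [hij]
  have hs : ∀ i j, ‖(s x i j : ℂ)‖ ≤ 2 := by
    intro i j
    rw [Complex.norm_real, Real.norm_eq_abs]
    have h2 : |s x i j| ≤ |s x i j - (1 : Matrix (Fin n) (Fin n) ℝ) i j| +
        |(1 : Matrix (Fin n) (Fin n) ℝ) i j| := by
      have := abs_add_le (s x i j - (1 : Matrix (Fin n) (Fin n) ℝ) i j)
        ((1 : Matrix (Fin n) (Fin n) ℝ) i j)
      simpa using this
    linarith [hs1 i j, hone i j]
  have hP1 : ∀ a b, ‖P x a b - (1 : Matrix (Fin N) (Fin N) ℂ) a b‖ ≤ δ := fun a b => by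
    simpa using cl0 (h.cP a b) x
  have hP : ∀ a b, ‖P x a b‖ ≤ 2 := by
    intro a b
    have h2 := norm_add_le (P x a b - (1 : Matrix (Fin N) (Fin N) ℂ) a b)
      ((1 : Matrix (Fin N) (Fin N) ℂ) a b)
    rw [sub_add_cancel] at h2
    linarith [hP1 a b, one_entry a b]
  have hds : ∀ l i j, ‖pd l (fun y => (s y i j : ℂ)) x‖ ≤ δ := by
    intro l i j
    have h2 := cl1 hk (h.cs i j) l x
    rw [pd_sub_const] at h2
    have h3 : pd l (fun y => (s y i j : ℂ)) x = ((pd l (fun y => s y i j) x : ℝ) : ℂ) :=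
      pd_clm Complex.ofRealCLM (dfa (h.ss i j) x) l
    rw [h3, Complex.norm_real]
    exact h2
  have hdP : ∀ l a b, ‖pd l (fun y => P y a b) x‖ ≤ δ := by
    intro l a b
    have h2 := cl1 hk (h.cP a b) l x
    have h3 : pd l (fun y => (P y - 1) a b) x = pd l (fun y => P y a b) x := by
      simp only [Matrix.sub_apply]
      exact pd_sub_const _ _ _ _
    rwa [h3] at h2
  have hG : ∀ i a b, ‖G i x a b‖ ≤ δ := fun i a b => cl0 (h.cG i a b) x
  refine ⟨by positivity, h0, fun i j => ?_, fun a b => ?_, fun a b => ?_, fun l a b => ?_,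
    fun i j => ?_, fun i j => ?_, fun l i j => ?_, fun j => ?_⟩
  · refine (m1_le (dl_entry i j)).trans ?_
    nlinarith
  · have h2 : ∀ p q, ‖Γ a b x p q‖ ≤ 2 := by
      intro p q
      have h3 : ‖Γ a b x p q - (dl a b : Matrix (Fin N) (Fin N) ℂ) p q‖ ≤ δ :=
        cl0 (hΓ a b p q) x
      have h4 := norm_add_le (Γ a b x p q - (dl a b : Matrix (Fin N) (Fin N) ℂ) p q)
        ((dl a b : Matrix (Fin N) (Fin N) ℂ) p q)
      rw [sub_add_cancel] at h4
      linarith [dl_entry (N := N) a b p q]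
    refine (m1_le h2).trans ?_
    nlinarith
  · have h2 : ∀ p q, ‖(Γ a b x - dl a b : Matrix (Fin N) (Fin N) ℂ) p q‖ ≤ δ :=
      fun p q => cl0 (hΓ a b p q) x
    refine (m1_le h2).trans ?_
    have h3 : 0 ≤ (N : ℝ) * N * δ := by positivity
    nlinarith [mul_nonneg h3 hn]
  · have h2 : ∀ p q, ‖pdm l (Γ a b) x p q‖ ≤ δ := by
      intro p q
      have h3 := cl1 hk (hΓ a b p q) l x
      have h4 : pd l (fun y => (Γ a b y - if a = b then 1 else 0) p q) x =
          pd l (fun y => Γ a b y p q) x := by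
        simp only [Matrix.sub_apply]
        exact pd_sub_const _ _ _ _
      rwa [h4] at h3
    refine (m1_le h2).trans ?_
    have h3 : 0 ≤ (N : ℝ) * N * δ := by positivity
    nlinarith [mul_nonneg h3 hn]
  · have h2 : ∀ p q, ‖TP s P i j x p q‖ ≤ 4 := by
      intro p q
      simp only [TP, Matrix.smul_apply, smul_eq_mul, norm_mul]
      have := mul_le_mul (hs i j) (hP p q) (norm_nonneg _) (by norm_num)
      linarith
    refine (m1_le h2).trans ?_
    nlinarith [mul_nonneg hN hn]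
  · have h2 : ∀ p q, ‖(TP s P i j x - dl i j : Matrix (Fin N) (Fin N) ℂ) p q‖ ≤ 3 * δ := by
      intro p q
      have h3 : (TP s P i j x - dl i j : Matrix (Fin N) (Fin N) ℂ) p q =
          ((s x i j - (1 : Matrix (Fin n) (Fin n) ℝ) i j : ℝ) : ℂ) * P x p q +
          (((1 : Matrix (Fin n) (Fin n) ℝ) i j : ℝ) : ℂ) *
            (P x p q - (1 : Matrix (Fin N) (Fin N) ℂ) p q) := by
        simp only [TP, dl, Matrix.sub_apply, Matrix.smul_apply, smul_eq_mul]
        by_cases hij : i = j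
        · subst hij
          simp
          ring
        · simp [hij]
      rw [h3]
      refine (norm_add_le _ _).trans ?_
      rw [norm_mul, norm_mul, Complex.norm_real, Complex.norm_real, Real.norm_eq_abs,
        Real.norm_eq_abs]
      have h4 := mul_le_mul (hs1 i j) (hP p q) (norm_nonneg _) h0
      have h5 := mul_le_mul (hone i j) (hP1 p q) (norm_nonneg _) zero_le_one
      linarith
    refine (m1_le h2).trans ?_
    have h3 : 0 ≤ (N : ℝ) * N * δ := by positivity
    nlinarith [mul_nonneg h3 hn]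
  · have h2 : ∀ p q, ‖pdm l (TP s P i j) x p q‖ ≤ 4 * δ := by
      intro p q
      have h3 : pdm l (TP s P i j) x p q = pd l (fun y => (s y i j : ℂ)) x * P x p q +
          (s x i j : ℂ) * pd l (fun y => P y p q) x := by
        simp only [pdm, Matrix.of_apply, TP, Matrix.smul_apply, smul_eq_mul]
        exact pd_mul (dfa (Complex.ofRealCLM.contDiff.comp (h.ss i j)) x) (dfa (h.sP p q) x) l
      rw [h3]
      refine (norm_add_le _ _).trans ?_
      rw [norm_mul, norm_mul]
      have h4 := mul_le_mul (hds l i j) (hP p q) (norm_nonneg _) h0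
      have h5 := mul_le_mul (hs i j) (hdP l p q) (norm_nonneg _) (by norm_num)
      linarith
    refine (m1_le h2).trans ?_
    have h3 : 0 ≤ (N : ℝ) * N * δ := by positivity
    nlinarith [mul_nonneg h3 hn]
  · have h2 : ∀ p q, ‖kp s G j x p q‖ ≤ n * (2 * δ) := by
      intro p q
      have h3 : kp s G j x p q = ∑ l, (s x j l : ℂ) * G l x p q := by
        simp only [kp, Matrix.sum_apply, Matrix.smul_apply, smul_eq_mul]
      rw [h3]
      refine sum1_le fun l => ?_
      rw [norm_mul]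
      exact mul_le_mul (hs j l) (hG l p q) (norm_nonneg _) (by norm_num)
    refine (m1_le h2).trans ?_
    have h3 : 0 ≤ (N : ℝ) * N * δ := by positivity
    nlinarith [mul_nonneg h3 hn]

/-! ### smoothness -/

theorem smPdm {P : MC n N} (hP : SmC P) (i : Fin n) : SmC (pdm i P) := fun a b =>
  contDiff_pd (hP a b) i

theorem smAdd {P Q : MC n N} (hP : SmC P) (hQ : SmC Q) : SmC fun x => P x + Q x := fun a b =>
  (hP a b).add (hQ a b)

theorem smSub {P Q : MC n N} (hP : SmC P) (hQ : SmC Q) : SmC fun x => P x - Q x := fun a b =>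
  (hP a b).sub (hQ a b)

theorem smSum {ι : Type*} {u : Finset ι} {P : ι → MC n N} (hP : ∀ i ∈ u, SmC (P i)) :
    SmC fun x => ∑ i ∈ u, P i x := by
  intro a b
  simp only [Matrix.sum_apply]
  exact ContDiff.sum fun i hi => hP i hi a b

theorem smConst {P : MC n N} (hP : SmC P) (c : ℂ) : SmC fun x => c • P x := by
  intro a b
  simp only [Matrix.smul_apply, smul_eq_mul]
  exact contDiff_const.mul (hP a b)

theorem smKp {s : MF n} {G : Fin n → MC n N} (hs : SmM s) (hG : ∀ i, SmC (G i)) (i : Fin n) :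
    SmC (kp s G i) :=
  smSum fun j _ => smTP hs (hG j) i j

theorem smRhb {s : MF n} {P : MC n N} {G : Fin n → MC n N} {k2 : Fin n → Fin n → MC n N}
    (hs : SmM s) (hP : SmC P) (hG : ∀ i, SmC (G i)) (hk : ∀ i j, SmC (k2 i j)) (b : Fin n) :
    SmC (rhb s P G k2 b) := by
  unfold rhb
  refine smAdd (smConst (smSum fun i _ => smSum fun j _ =>
    SmC_mul (smPdm (hk j b) i) (smTP hs hP i j)) 2) ?_
  exact smSum fun j _ => SmC_mul (hk j b)
    (smSub (smSum fun i _ => smPdm (smTP hs hP i j) i) (smKp hs hG j))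

theorem cont_m1 {P : MC n N} (hP : SmC P) : Continuous fun x => m1 (P x) :=
  continuous_finsetSum _ fun a _ => continuous_finsetSum _ fun b _ => (hP a b).continuous.norm

theorem pdm_off {P : MC n N} (h0 : ∀ x ∉ bl0 n, P x = 0) (i : Fin n) :
    ∀ x ∉ bl0 n, pdm i P x = 0 := by
  intro x hx
  ext a b
  exact pd_off (f := fun y => P y a b) (fun y hy => by rw [h0 y hy]; rfl) i x hx

theorem cont_nq {P : MC n N} (hP : SmC P) : Continuous fun x => nq (P x) :=
  continuous_finsetSum _ fun a _ => continuous_finsetSum _ fun b _ =>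
    (hP a b).continuous.norm.pow 2

theorem nq_zero : nq (0 : Matrix (Fin N) (Fin N) ℂ) = 0 := by simp [nq]

theorem int_nq {P : MC n N} (hP : SmC P) (h0 : ∀ x ∉ bl0 n, P x = 0) :
    Integrable fun x => nq (P x) :=
  int_off (cont_nq hP) fun x hx => by rw [h0 x hx, nq_zero]

/-- Poincaré for matrix functions. -/
theorem n2_le {P : MC n N} (hP : SmC P) (h0 : ∀ x ∉ bl0 n, P x = 0) (i : Fin n) :
    n2 P ≤ n2 (pdm i P) := by
  have i1 : ∀ a b, Integrable fun x => ‖P x a b‖ ^ 2 := fun a b =>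
    int_off ((hP a b).continuous.norm.pow 2) fun x hx => by rw [h0 x hx]; simp
  have i2 : ∀ a b, Integrable fun x => ‖pdm i P x a b‖ ^ 2 := fun a b =>
    int_off ((smPdm hP i a b).continuous.norm.pow 2) fun x hx => by
      rw [pdm_off h0 i x hx]; simp
  unfold n2 nq
  rw [integral_finsetSum _ fun a _ => integrable_finsetSum _ fun b _ => i1 a b,
    integral_finsetSum _ fun a _ => integrable_finsetSum _ fun b _ => i2 a b]
  refine Finset.sum_le_sum fun a _ => ?_
  rw [integral_finsetSum _ fun b _ => i1 a b, integral_finsetSum _ fun b _ => i2 a b]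
  refine Finset.sum_le_sum fun b _ => ?_
  exact poincare (hP a b) (fun x hx => by rw [h0 x hx]; rfl) i

theorem sum1_sq (f : Fin n → ℝ) : (∑ a, f a) ^ 2 ≤ n * ∑ a, f a ^ 2 := by
  have := sq_sum_le_card_mul_sum_sq (s := Finset.univ) (f := f)
  simpa using this

theorem sum2_sq (f : Fin n → Fin n → ℝ) :
    (∑ a, ∑ b, f a b) ^ 2 ≤ n * n * ∑ a, ∑ b, f a b ^ 2 := by
  have h1 := sum1_sq fun a => ∑ b, f a b
  have h2 : ∑ a, (∑ b, f a b) ^ 2 ≤ n * ∑ a, ∑ b, f a b ^ 2 := by
    rw [Finset.mul_sum]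
    exact Finset.sum_le_sum fun a _ => sum1_sq (f a)
  have h3 : (0 : ℝ) ≤ n := Nat.cast_nonneg n
  nlinarith [mul_le_mul_of_nonneg_left h2 h3]

theorem cont_nDn {D : Fin n → MC n N} (hD : ∀ a, SmC (D a)) : Continuous (nDn D) :=
  continuous_finsetSum _ fun a _ => continuous_finsetSum _ fun i _ => cont_m1 (smPdm (hD a) i)

theorem cont_nD0 {D : Fin n → MC n N} (hD : ∀ a, SmC (D a)) : Continuous (nD0 D) :=
  continuous_finsetSum _ fun a _ => cont_m1 (hD a)

theorem cont_nK {k2 : Fin n → Fin n → MC n N} (hk : ∀ i j, SmC (k2 i j)) : Continuous (nK k2) :=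
  continuous_finsetSum _ fun i _ => continuous_finsetSum _ fun j _ => cont_m1 (hk i j)

theorem int_nDn {D : Fin n → MC n N} (hD : ∀ a, SmC (D a)) (h0 : ∀ a, ∀ x ∉ bl0 n, D a x = 0) :
    ∫ x, nDn D x ^ 2 ≤ n * n * (N * N) * nD D := by
  have i1 : ∀ a i, Integrable fun x => nq (pdm i (D a) x) := fun a i =>
    int_nq (smPdm (hD a) i) (pdm_off (h0 a) i)
  have i2 : Integrable fun x => (n * n * (N * N) : ℝ) * ∑ a, ∑ i, nq (pdm i (D a) x) :=
    (integrable_finsetSum _ fun a _ => integrable_finsetSum _ fun i _ => i1 a i).const_mul _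
  have i3 : Integrable fun x => nDn D x ^ 2 := int_off ((cont_nDn hD).pow 2) fun x hx => by
    have : nDn D x = 0 := Finset.sum_eq_zero fun a _ => Finset.sum_eq_zero fun i _ => by
      rw [pdm_off (h0 a) i x hx, m1_zero]
    rw [this]
    simp
  have h1 : ∀ x, nDn D x ^ 2 ≤ (n * n * (N * N) : ℝ) * ∑ a, ∑ i, nq (pdm i (D a) x) := by
    intro x
    refine (sum2_sq _).trans ?_
    rw [mul_assoc ((n : ℝ) * n)]
    refine mul_le_mul_of_nonneg_left ?_ (by positivity)
    rw [Finset.mul_sum]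
    refine Finset.sum_le_sum fun a _ => ?_
    rw [Finset.mul_sum]
    exact Finset.sum_le_sum fun i _ => m1_sq _
  refine (integral_mono i3 i2 h1).trans (le_of_eq ?_)
  rw [integral_const_mul, integral_finsetSum _ fun a _ => integrable_finsetSum _ fun i _ => i1 a i]
  congr 1
  unfold nD n2
  refine Finset.sum_congr rfl fun a _ => ?_
  rw [integral_finsetSum _ fun i _ => i1 a i]

theorem int_nD0 {D : Fin n → MC n N} (hD : ∀ a, SmC (D a)) (h0 : ∀ a, ∀ x ∉ bl0 n, D a x = 0)
    (i : Fin n) : ∫ x, nD0 D x ^ 2 ≤ n * (N * N) * nD D := by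
  have i1 : ∀ a, Integrable fun x => nq (D a x) := fun a => int_nq (hD a) (h0 a)
  have i2 : Integrable fun x => (n * (N * N) : ℝ) * ∑ a, nq (D a x) :=
    (integrable_finsetSum _ fun a _ => i1 a).const_mul _
  have i3 : Integrable fun x => nD0 D x ^ 2 := int_off ((cont_nD0 hD).pow 2) fun x hx => by
    have : nD0 D x = 0 := Finset.sum_eq_zero fun a _ => by rw [h0 a x hx, m1_zero]
    rw [this]
    simp
  have h1 : ∀ x, nD0 D x ^ 2 ≤ (n * (N * N) : ℝ) * ∑ a, nq (D a x) := by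
    intro x
    refine (sum1_sq _).trans ?_
    rw [mul_assoc (n : ℝ)]
    refine mul_le_mul_of_nonneg_left ?_ (by positivity)
    rw [Finset.mul_sum]
    exact Finset.sum_le_sum fun a _ => m1_sq _
  refine (integral_mono i3 i2 h1).trans ?_
  rw [integral_const_mul, integral_finsetSum _ fun a _ => i1 a]
  refine mul_le_mul_of_nonneg_left ?_ (by positivity)
  unfold nD
  refine Finset.sum_le_sum fun a _ => ?_
  refine (n2_le (hD a) (h0 a) i).trans ?_
  refine Finset.single_le_sum (f := fun i => n2 (pdm i (D a))) (fun j _ => ?_) (Finset.mem_univ i)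
  exact integral_nonneg fun x => Finset.sum_nonneg fun _ _ => Finset.sum_nonneg fun _ _ =>
    sq_nonneg _

theorem int_nK {k2 : Fin n → Fin n → MC n N} (hk : ∀ i j, SmC (k2 i j))
    (h0 : ∀ i j, ∀ x ∉ bl0 n, k2 i j x = 0) :
    ∫ x, nK k2 x ^ 2 ≤ n * n * (N * N) * ∑ i, ∑ j, n2 (k2 i j) := by
  have i1 : ∀ a i, Integrable fun x => nq (k2 a i x) := fun a i => int_nq (hk a i) (h0 a i)
  have i2 : Integrable fun x => (n * n * (N * N) : ℝ) * ∑ a, ∑ i, nq (k2 a i x) :=
    (integrable_finsetSum _ fun a _ => integrable_finsetSum _ fun i _ => i1 a i).const_mul _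
  have i3 : Integrable fun x => nK k2 x ^ 2 := int_off ((cont_nK hk).pow 2) fun x hx => by
    have : nK k2 x = 0 := Finset.sum_eq_zero fun a _ => Finset.sum_eq_zero fun i _ => by
      rw [h0 a i x hx, m1_zero]
    rw [this]
    simp
  have h1 : ∀ x, nK k2 x ^ 2 ≤ (n * n * (N * N) : ℝ) * ∑ a, ∑ i, nq (k2 a i x) := by
    intro x
    refine (sum2_sq _).trans ?_
    rw [mul_assoc ((n : ℝ) * n)]
    refine mul_le_mul_of_nonneg_left ?_ (by positivity)
    rw [Finset.mul_sum]
    refine Finset.sum_le_sum fun a _ => ?_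
    rw [Finset.mul_sum]
    exact Finset.sum_le_sum fun i _ => m1_sq _
  refine (integral_mono i3 i2 h1).trans (le_of_eq ?_)
  rw [integral_const_mul, integral_finsetSum _ fun a _ => integrable_finsetSum _ fun i _ => i1 a i]
  congr 1
  unfold n2
  refine Finset.sum_congr rfl fun a _ => ?_
  rw [integral_finsetSum _ fun i _ => i1 a i]

theorem kli : RowKLI := by
  intro n N hn
  set c : ℝ := N * N * (4 + 2 * n) with hc
  set c1 : ℝ := (4 * n ^ 4 + n ^ 3) * c ^ 2 with hc1
  set A : ℝ := 2 * (n * n * (N * N) + n * (N * N)) with hA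
  set B : ℝ := n * n * (N * N) with hB
  have hc0 : 0 ≤ c := by positivity
  have hc10 : 0 ≤ c1 := by positivity
  refine ⟨1, c1 * (√A * √B) + 1, 1, by positivity, one_pos, ?_⟩
  intro δ h0 h1 Ω s₁ s₂ P₁ P₂ G₁ G₂ Y D h Γ hΓs hΓ k2 hk
  have hoff : ∀ x ∉ bl0 n, x ∉ Ω := fun x hx h' => hx (h.sub h')
  have hDz : ∀ a, ∀ x ∉ bl0 n, D a x = 0 := fun a x hx => h.oD a x (hoff x hx)
  have hkz : ∀ i j, ∀ x ∉ bl0 n, k2 i j x = 0 := fun i j x hx => hk.z i j x (hoff x hx)
  have hs := h.d₂.ss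
  have hP := h.d₂.sP
  have hG := h.d₂.sG
  have hD := h.sD
  have sm1 : ∀ a b, SmC fun x => D a x * (Γ a b x * rhb s₂ P₂ G₂ k2 b x) := fun a b =>
    SmC_mul (hD a) (SmC_mul (hΓs a b) (smRhb hs hP hG hk.sm b))
  have sm2 : ∀ i j, SmC fun x => (pdm i (D j) x + pdm j (D i) x) * k2 i j x := fun i j =>
    SmC_mul (smAdd (smPdm (hD j) i) (smPdm (hD i) j)) (hk.sm i j)
  have sm3 : ∀ a b i j, SmC fun y => D a y * Γ a b y * k2 j b y * TP s₂ P₂ i j y :=
    fun a b i j => SmC_mul (SmC_mul (SmC_mul (hD a) (hΓs a b)) (hk.sm j b)) (smTP hs hP i j)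
  have j1 : Integrable fun x => ∑ a, ∑ b, (D a x * (Γ a b x * rhb s₂ P₂ G₂ k2 b x)).trace :=
    int_off (continuous_finsetSum _ fun a _ => continuous_finsetSum _ fun b _ =>
      (contDiff_tr (sm1 a b)).continuous) fun x hx =>
      Finset.sum_eq_zero fun a _ => Finset.sum_eq_zero fun b _ => by
        rw [hDz a x hx, zero_mul, Matrix.trace_zero]
  have j2 : Integrable fun x => ∑ i, ∑ j, ((pdm i (D j) x + pdm j (D i) x) * k2 i j x).trace :=
    int_off (continuous_finsetSum _ fun a _ => continuous_finsetSum _ fun b _ =>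
      (contDiff_tr (sm2 a b)).continuous) fun x hx =>
      Finset.sum_eq_zero fun a _ => Finset.sum_eq_zero fun b _ => by
        rw [hkz a b x hx, mul_zero, Matrix.trace_zero]
  have j3 : ∀ a b i j, Integrable (pd i fun y =>
      (D a y * Γ a b y * k2 j b y * TP s₂ P₂ i j y).trace) ∧
      ∫ x, pd i (fun y => (D a y * Γ a b y * k2 j b y * TP s₂ P₂ i j y).trace) x = 0 :=
    fun a b i j => integral_pd_zero bdd_bl0 (contDiff_tr (sm3 a b i j)) (fun x hx => by
      rw [hDz a x hx, zero_mul, zero_mul, zero_mul, Matrix.trace_zero]) i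
  have j4 : ∫ x, (∑ a, ∑ b, ∑ i, ∑ j,
      2 * pd i (fun y => (D a y * Γ a b y * k2 j b y * TP s₂ P₂ i j y).trace) x) = 0 := by
    rw [integral_finsetSum _ fun a _ => integrable_finsetSum _ fun b _ =>
      integrable_finsetSum _ fun i _ => integrable_finsetSum _ fun j _ =>
        (j3 a b i j).1.const_mul 2]
    refine Finset.sum_eq_zero fun a _ => ?_
    rw [integral_finsetSum _ fun b _ =>
      integrable_finsetSum _ fun i _ => integrable_finsetSum _ fun j _ =>
        (j3 a b i j).1.const_mul 2]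
    refine Finset.sum_eq_zero fun b _ => ?_
    rw [integral_finsetSum _ fun i _ => integrable_finsetSum _ fun j _ =>
        (j3 a b i j).1.const_mul 2]
    refine Finset.sum_eq_zero fun i _ => ?_
    rw [integral_finsetSum _ fun j _ => (j3 a b i j).1.const_mul 2]
    refine Finset.sum_eq_zero fun j _ => ?_
    rw [integral_const_mul, (j3 a b i j).2, mul_zero]
  have j5 : Integrable fun x => ∑ a, ∑ b, ∑ i, ∑ j,
      2 * pd i (fun y => (D a y * Γ a b y * k2 j b y * TP s₂ P₂ i j y).trace) x :=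
    integrable_finsetSum _ fun a _ => integrable_finsetSum _ fun b _ =>
      integrable_finsetSum _ fun i _ => integrable_finsetSum _ fun j _ =>
        (j3 a b i j).1.const_mul 2
  have j6 : Integrable fun x => E1 s₂ P₂ D Γ k2 x + E2 s₂ P₂ G₂ D Γ k2 x := by
    refine ((j1.add j2).sub j5).congr (Filter.Eventually.of_forall fun x => ?_)
    simp only [Pi.add_apply, Pi.sub_apply]
    rw [id_pw hs hP hD hΓs hk.sm x]
    ring
  have key : (∫ x, ∑ a, ∑ b, (D a x * (Γ a b x * rhb s₂ P₂ G₂ k2 b x)).trace) +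
      ∫ x, ∑ i, ∑ j, ((pdm i (D j) x + pdm j (D i) x) * k2 i j x).trace =
      ∫ x, (E1 s₂ P₂ D Γ k2 x + E2 s₂ P₂ G₂ D Γ k2 x) := by
    rw [← integral_add j1 j2]
    have : ∀ x, (∑ a, ∑ b, (D a x * (Γ a b x * rhb s₂ P₂ G₂ k2 b x)).trace) +
      ∑ i, ∑ j, ((pdm i (D j) x + pdm j (D i) x) * k2 i j x).trace =
      (∑ a, ∑ b, ∑ i, ∑ j,
        2 * pd i (fun y => (D a y * Γ a b y * k2 j b y * TP s₂ P₂ i j y).trace) x) +
      (E1 s₂ P₂ D Γ k2 x + E2 s₂ P₂ G₂ D Γ k2 x) := fun x => id_pw hs hP hD hΓs hk.sm x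
    simp only [this]
    rw [integral_add j5 j6, j4, zero_add]
  rw [key]
  set f : V n → ℝ := fun x => nDn D x + nD0 D x with hf
  have hfc : Continuous f := (cont_nDn hD).add (cont_nD0 hD)
  have hgc : Continuous (nK k2) := cont_nK hk.sm
  have hfz : ∀ x ∉ bl0 n, f x = 0 := by
    intro x hx
    have e1 : nDn D x = 0 := Finset.sum_eq_zero fun a _ => Finset.sum_eq_zero fun i _ => by
      rw [pdm_off (hDz a) i x hx, m1_zero]
    have e2 : nD0 D x = 0 := Finset.sum_eq_zero fun a _ => by rw [hDz a x hx, m1_zero]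
    simp only [hf, e1, e2, add_zero]
  have hgz : ∀ x ∉ bl0 n, nK k2 x = 0 := fun x hx =>
    Finset.sum_eq_zero fun a _ => Finset.sum_eq_zero fun i _ => by
      rw [hkz a i x hx, m1_zero]
  have hf0 : ∀ x, 0 ≤ f x := fun x => add_nonneg (nDn_nonneg D x) (nD0_nonneg D x)
  have hI : Integrable fun x => c1 * δ * (f x * nK k2 x) :=
    (int_off (hfc.mul hgc) fun x hx => by rw [Pi.mul_apply, hfz x hx, zero_mul]).const_mul _
  have hpw : ∀ x, ‖E1 s₂ P₂ D Γ k2 x + E2 s₂ P₂ G₂ D Γ k2 x‖ ≤ c1 * δ * (f x * nK k2 x) :=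
    fun x => E_le (bd_of le_rfl h0 h1 h.d₂ hΓ x) hk.sy
  have hle := norm_integral_le_of_norm_le hI (Filter.Eventually.of_forall hpw)
  refine hle.trans ?_
  rw [integral_const_mul]
  have hcs := cs_int hfc hgc hf0 (nK_nonneg k2) hfz hgz
  have hnD : 0 ≤ nD D := Finset.sum_nonneg fun _ _ => Finset.sum_nonneg fun _ _ =>
    integral_nonneg fun x => Finset.sum_nonneg fun _ _ => Finset.sum_nonneg fun _ _ =>
      sq_nonneg _
  have hf2 : ∫ x, f x ^ 2 ≤ A * nD D := by
    have i1 : Integrable fun x => nDn D x ^ 2 := int_off ((cont_nDn hD).pow 2) fun x hx => by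
      have e1 : nDn D x = 0 := Finset.sum_eq_zero fun a _ => Finset.sum_eq_zero fun i _ => by
        rw [pdm_off (hDz a) i x hx, m1_zero]
      rw [e1]
      simp
    have i2 : Integrable fun x => nD0 D x ^ 2 := int_off ((cont_nD0 hD).pow 2) fun x hx => by
      have e2 : nD0 D x = 0 := Finset.sum_eq_zero fun a _ => by rw [hDz a x hx, m1_zero]
      rw [e2]
      simp
    have i3 : Integrable fun x => f x ^ 2 := int_off (hfc.pow 2) fun x hx => by
      rw [hfz x hx]
      simp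
    have e3 : ∫ x, f x ^ 2 ≤ ∫ x, (2 * nDn D x ^ 2 + 2 * nD0 D x ^ 2) := by
      refine integral_mono i3 ((i1.const_mul 2).add (i2.const_mul 2)) fun x => ?_
      simp only [hf]
      nlinarith [sq_nonneg (nDn D x - nD0 D x)]
    rw [integral_add (i1.const_mul 2) (i2.const_mul 2), integral_const_mul,
      integral_const_mul] at e3
    have e4 := int_nDn hD hDz
    have e5 := int_nD0 hD hDz ⟨0, hn⟩
    rw [hA]
    linarith
  have hg2 : ∫ x, nK k2 x ^ 2 ≤ B * ∑ i, ∑ j, n2 (k2 i j) := int_nK hk.sm hkz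
  have hA0 : 0 ≤ A := by positivity
  have hB0 : 0 ≤ B := by positivity
  have e6 : √(∫ x, f x ^ 2) ≤ √A * √(nD D) := by
    rw [← Real.sqrt_mul hA0]
    exact Real.sqrt_le_sqrt hf2
  have e7 : √(∫ x, nK k2 x ^ 2) ≤ √B * √(∑ i, ∑ j, n2 (k2 i j)) := by
    rw [← Real.sqrt_mul hB0]
    exact Real.sqrt_le_sqrt hg2
  have e8 : ∫ x, f x * nK k2 x ≤
      (√A * √(nD D)) * (√B * √(∑ i, ∑ j, n2 (k2 i j))) :=
    hcs.trans (mul_le_mul e6 e7 (Real.sqrt_nonneg _) (by positivity))
  have e9 : 0 ≤ c1 * δ := mul_nonneg hc10 h0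
  refine (mul_le_mul_of_nonneg_left e8 e9).trans ?_
  have e10 : 0 ≤ δ * √(nD D) * √(∑ i, ∑ j, n2 (k2 i j)) := by positivity
  nlinarith

end Vale.Agent.P088.PJ.H87

namespace Vale.Agent.P088.PJ

/-- Row KLI. -/
theorem rowKLI : RowKLI := H87.kli

end Vale.Agent.P088.PJ
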